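import Vale.Agent.Lib.P232.Cl12

open Vale.Agent.Lib.P232

namespace Vale.Agent.Results.P232.A_class

/-- Let `E ⊂ ℝ³` be a measurable `ℤ³`-periodic set (a measurable subset of the cubic flat
three-torus) of volume `V = |E ∩ [0,1)³|` with `0 < V < 1`. Then the De Giorgi perimeter of `E` is at
least `J(min (V, 1 - V))`, where `J(v) = min ((36 π)^(1/3) v^(2/3), 2 √(π v), 2)`. If equality holds,
then, up to a null set, `E` (when `V ≤ 1/2`), respectively its complement (when `V ≥ 1/2`), is a
geodesic ball, a solid tube about a closed geodesic parallel to a coordinate axis, or a slab between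
two parallel coordinate tori, of the corresponding volume `min (V, 1 - V)`. -/
theorem result (E : Set R3) (hE : MeasurableSet E) (hper : PeriodicSet E)
    (hV0 : 0 < torusVolume E) (hV1 : torusVolume E < 1) :
    ENNReal.ofReal (profileJ (min (torusVolume E) (1 - torusVolume E))) ≤ perimeter E ∧
      (perimeter E = ENNReal.ofReal (profileJ (min (torusVolume E) (1 - torusVolume E))) →
        (torusVolume E ≤ 1 / 2 → IsCanonical E (torusVolume E)) ∧
          (1 / 2 ≤ torusVolume E → IsCanonical Eᶜ (1 - torusVolume E))) :=
  ⟨full_lower E hE hper, fun heq => classify hE hper hV0 hV1 heq⟩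

end Vale.Agent.Results.P232.A_class
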