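import Vale.Agent.Lib.P232.Gap6

open Vale.Agent.Lib.P232

namespace Vale.Agent.Results.P232.A_full

/-- Let `E ⊂ ℝ³` be a measurable `ℤ³`-periodic set (a measurable subset of the cubic flat
three-torus), of volume `V = |E ∩ [0,1)³|`, and put `v = min (V, 1 - V)`. Then the De Giorgi
perimeter of `E` is at least `J(v) = min ((36 π)^(1/3) v^(2/3), 2 √(π v), 2)`. -/
theorem result (E : Set R3) (hE : MeasurableSet E) (hper : PeriodicSet E) :
    ENNReal.ofReal (profileJ (min (torusVolume E) (1 - torusVolume E))) ≤ perimeter E :=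
  full_lower E hE hper

end Vale.Agent.Results.P232.A_full
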