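import Vale.Agent.Lib.P232.Main

open Vale.Agent.Lib.P232

namespace Vale.Agent.Results.P232.A_main

/-- Let `E ⊂ ℝ³` be a measurable `ℤ³`-periodic set (a measurable subset of the cubic flat
three-torus), of volume `V = |E ∩ [0,1)³|`, and put `v = min (V, 1 - V)`. If `v ≤ 0.2675` or
`v ≥ 0.3592`, then the De Giorgi perimeter of `E` is at least
`J(v) = min ((36 π)^(1/3) v^(2/3), 2 √(π v), 2)`. -/
theorem result (E : Set R3) (hE : MeasurableSet E) (hper : PeriodicSet E)
    (hrange : min (torusVolume E) (1 - torusVolume E) ≤ 0.2675 ∨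
      0.3592 ≤ min (torusVolume E) (1 - torusVolume E)) :
    ENNReal.ofReal (profileJ (min (torusVolume E) (1 - torusVolume E))) ≤ perimeter E :=
  main_lower E hE hper hrange

end Vale.Agent.Results.P232.A_main
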